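import Crest.Agent.Lib.Bc.GridB56
/-! Row 163: the grid orbit at `b = 5`, tilt `-17/38`, grid size 24, weights in units of `2^-28`: setup. -/
set_option maxRecDepth 1000000
open Crest.ProbabilityR.Broadcast
namespace Crest.Agent.Lib.Bc.GridO.B5E
def ks : List ℕ := [nat_lit 9,nat_lit 10,nat_lit 18,nat_lit 19,nat_lit 20,nat_lit 27,nat_lit 28,nat_lit 29,nat_lit 30,nat_lit 36,nat_lit 37,nat_lit 38,nat_lit 39,nat_lit 40,nat_lit 45,nat_lit 46,nat_lit 47,nat_lit 48,nat_lit 49,nat_lit 50,nat_lit 54,nat_lit 55,nat_lit 56,nat_lit 57,nat_lit 58,nat_lit 59,nat_lit 60,nat_lit 63,nat_lit 64,nat_lit 65,nat_lit 66,nat_lit 67,nat_lit 68,nat_lit 69,nat_lit 70,nat_lit 72,nat_lit 73,nat_lit 74,nat_lit 75,nat_lit 76,nat_lit 77,nat_lit 78,nat_lit 79,nat_lit 80,nat_lit 81,nat_lit 82,nat_lit 83,nat_lit 84,nat_lit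 85,nat_lit 86,nat_lit 87,nat_lit 90,nat_lit 91,nat_lit 92,nat_lit 93,nat_lit 94,nat_lit 99,nat_lit 100,nat_lit 101,nat_lit 108]
def P : List Pt := [⟨nat_lit 24,nat_lit 0,nat_lit 0⟩,⟨nat_lit 23,nat_lit 1,nat_lit 0⟩,⟨nat_lit 22,nat_lit 1,nat_lit 1⟩,⟨nat_lit 22,nat_lit 2,nat_lit 0⟩,⟨nat_lit 21,nat_lit 2,nat_lit 1⟩,⟨nat_lit 20,nat_lit 2,nat_lit 2⟩,⟨nat_lit 21,nat_lit 3,nat_lit 0⟩,⟨nat_lit 20,nat_lit 3,nat_lit 1⟩,⟨nat_lit 19,nat_lit 3,nat_lit 2⟩,⟨nat_lit 18,nat_lit 3,nat_lit 3⟩,⟨nat_lit 20,nat_lit 4,nat_lit 0⟩,⟨nat_lit 19,nat_lit 4,nat_lit 1⟩,⟨nat_lit 18,nat_lit 4,nat_lit 2⟩,⟨nat_lit 17,nat_lit 4,nat_lit 3⟩,⟨nat_lit 16,nat_lit 4,nat_lit 4⟩,⟨nat_lit 19,nat_lit 5,nat_lit 0⟩,⟨nat_lit 18,nat_lit 5,nat_lit 1⟩,⟨nat_lit 17,nat_lit 5,nat_lit 2⟩,⟨nat_lit 16,nat_lit 5,nat_lit 3⟩,⟨nat_lit 15,nat_lit 5,nat_lit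 4⟩,⟨nat_lit 14,nat_lit 5,nat_lit 5⟩,⟨nat_lit 18,nat_lit 6,nat_lit 0⟩,⟨nat_lit 17,nat_lit 6,nat_lit 1⟩,⟨nat_lit 16,nat_lit 6,nat_lit 2⟩,⟨nat_lit 15,nat_lit 6,nat_lit 3⟩,⟨nat_lit 14,nat_lit 6,nat_lit 4⟩,⟨nat_lit 13,nat_lit 6,nat_lit 5⟩,⟨nat_lit 12,nat_lit 6,nat_lit 6⟩,⟨nat_lit 17,nat_lit 7,nat_lit 0⟩,⟨nat_lit 16,nat_lit 7,nat_lit 1⟩,⟨nat_lit 15,nat_lit 7,nat_lit 2⟩,⟨nat_lit 14,nat_lit 7,nat_lit 3⟩,⟨nat_lit 13,nat_lit 7,nat_lit 4⟩,⟨nat_lit 12,nat_lit 7,nat_lit 5⟩,⟨nat_lit 11,nat_lit 7,nat_lit 6⟩,⟨nat_lit 10,nat_lit 7,nat_lit 7⟩,⟨nat_lit 16,nat_lit 8,nat_lit 0⟩,⟨nat_lit 15,nat_lit 8,nat_lit 1⟩,⟨nat_lit 14,nat_lit 8,nat_lit 2⟩,⟨nat_lit 13,nat_lit 8,nat_lit 3⟩,⟨nat_lit 12,nat_lit 8,nat_lit 4⟩,⟨nat_lit 11,nat_lit 8,nat_lit 5⟩,⟨nat_lit 10,nat_lit 8,nat_lit 6⟩,⟨nat_lit 9,nat_lit 8,nat_lit 7⟩,⟨nat_lit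 8,nat_lit 8,nat_lit 8⟩,⟨nat_lit 15,nat_lit 9,nat_lit 0⟩,⟨nat_lit 14,nat_lit 9,nat_lit 1⟩,⟨nat_lit 13,nat_lit 9,nat_lit 2⟩,⟨nat_lit 12,nat_lit 9,nat_lit 3⟩,⟨nat_lit 11,nat_lit 9,nat_lit 4⟩,⟨nat_lit 10,nat_lit 9,nat_lit 5⟩,⟨nat_lit 9,nat_lit 9,nat_lit 6⟩,⟨nat_lit 14,nat_lit 10,nat_lit 0⟩,⟨nat_lit 13,nat_lit 10,nat_lit 1⟩,⟨nat_lit 12,nat_lit 10,nat_lit 2⟩,⟨nat_lit 11,nat_lit 10,nat_lit 3⟩,⟨nat_lit 10,nat_lit 10,nat_lit 4⟩,⟨nat_lit 13,nat_lit 11,nat_lit 0⟩,⟨nat_lit 12,nat_lit 11,nat_lit 1⟩,⟨nat_lit 11,nat_lit 11,nat_lit 2⟩,⟨nat_lit 12,nat_lit 12,nat_lit 0⟩]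
def K : List Pt := [⟨nat_lit 96,nat_lit 1320,nat_lit 1320⟩,⟨nat_lit 147,nat_lit 1269,nat_lit 1320⟩,⟨nat_lit 198,nat_lit 1269,nat_lit 1269⟩,⟨nat_lit 198,nat_lit 1218,nat_lit 1320⟩,⟨nat_lit 249,nat_lit 1218,nat_lit 1269⟩,⟨nat_lit 300,nat_lit 1218,nat_lit 1218⟩,⟨nat_lit 249,nat_lit 1167,nat_lit 1320⟩,⟨nat_lit 300,nat_lit 1167,nat_lit 1269⟩,⟨nat_lit 351,nat_lit 1167,nat_lit 1218⟩,⟨nat_lit 402,nat_lit 1167,nat_lit 1167⟩,⟨nat_lit 300,nat_lit 1116,nat_lit 1320⟩,⟨nat_lit 351,nat_lit 1116,nat_lit 1269⟩,⟨nat_lit 402,nat_lit 1116,nat_lit 1218⟩,⟨nat_lit 453,nat_lit 1116,nat_lit 1167⟩,⟨nat_lit 504,nat_lit 1116,nat_lit 1116⟩,⟨nat_lit 351,nat_lit 1065,nat_lit 1320⟩,⟨nat_lit 402,nat_lit 1065,nat_lit 1269⟩,⟨nat_lit 453,nat_lit 1065,nat_lit 1218⟩,⟨nat_lit 504,nat_lit 1065,nat_lit 1167⟩,⟨nat_lit 555,nat_lit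 1065,nat_lit 1116⟩,⟨nat_lit 606,nat_lit 1065,nat_lit 1065⟩,⟨nat_lit 402,nat_lit 1014,nat_lit 1320⟩,⟨nat_lit 453,nat_lit 1014,nat_lit 1269⟩,⟨nat_lit 504,nat_lit 1014,nat_lit 1218⟩,⟨nat_lit 555,nat_lit 1014,nat_lit 1167⟩,⟨nat_lit 606,nat_lit 1014,nat_lit 1116⟩,⟨nat_lit 657,nat_lit 1014,nat_lit 1065⟩,⟨nat_lit 708,nat_lit 1014,nat_lit 1014⟩,⟨nat_lit 453,nat_lit 963,nat_lit 1320⟩,⟨nat_lit 504,nat_lit 963,nat_lit 1269⟩,⟨nat_lit 555,nat_lit 963,nat_lit 1218⟩,⟨nat_lit 606,nat_lit 963,nat_lit 1167⟩,⟨nat_lit 657,nat_lit 963,nat_lit 1116⟩,⟨nat_lit 708,nat_lit 963,nat_lit 1065⟩,⟨nat_lit 759,nat_lit 963,nat_lit 1014⟩,⟨nat_lit 810,nat_lit 963,nat_lit 963⟩,⟨nat_lit 504,nat_lit 912,nat_lit 1320⟩,⟨nat_lit 555,nat_lit 912,nat_lit 1269⟩,⟨nat_lit 606,nat_lit 912,nat_lit 1218⟩,⟨nat_lit 657,nat_lit 912,nat_lit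 1167⟩,⟨nat_lit 708,nat_lit 912,nat_lit 1116⟩,⟨nat_lit 759,nat_lit 912,nat_lit 1065⟩,⟨nat_lit 810,nat_lit 912,nat_lit 1014⟩,⟨nat_lit 861,nat_lit 912,nat_lit 963⟩,⟨nat_lit 912,nat_lit 912,nat_lit 912⟩,⟨nat_lit 555,nat_lit 861,nat_lit 1320⟩,⟨nat_lit 606,nat_lit 861,nat_lit 1269⟩,⟨nat_lit 657,nat_lit 861,nat_lit 1218⟩,⟨nat_lit 708,nat_lit 861,nat_lit 1167⟩,⟨nat_lit 759,nat_lit 861,nat_lit 1116⟩,⟨nat_lit 810,nat_lit 861,nat_lit 1065⟩,⟨nat_lit 861,nat_lit 861,nat_lit 1014⟩,⟨nat_lit 606,nat_lit 810,nat_lit 1320⟩,⟨nat_lit 657,nat_lit 810,nat_lit 1269⟩,⟨nat_lit 708,nat_lit 810,nat_lit 1218⟩,⟨nat_lit 759,nat_lit 810,nat_lit 1167⟩,⟨nat_lit 810,nat_lit 810,nat_lit 1116⟩,⟨nat_lit 657,nat_lit 759,nat_lit 1320⟩,⟨nat_lit 708,nat_lit 759,nat_lit 1269⟩,⟨nat_lit 759,nat_lit 759,nat_lit 1218⟩,⟨nat_lit 708,nat_lit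 708,nat_lit 1320⟩]
def eqPt (x y : Pt) : Bool := Nat.beq x.a y.a && Nat.beq x.b y.b && Nat.beq x.c y.c
def eqPts : List Pt → List Pt → Bool
  | [], [] => true
  | x :: xs, y :: ys => eqPt x y && eqPts xs ys
  | _, _ => false
theorem eqPts_eq : ∀ a b : List Pt, eqPts a b = true → a = b := by
  intro a
  induction a with
  | nil =>
    intro b h
    cases b with
    | nil => rfl
    | cons _ _ => simp [eqPts] at h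
  | cons x a ih =>
    intro b h
    cases b with
    | nil => simp [eqPts] at h
    | cons y b =>
      simp only [eqPts, eqPt, Bool.and_eq_true] at h
      obtain ⟨⟨⟨h1, h2⟩, h3⟩, h4⟩ := h
      have e : x = y := by
        have e1 := Nat.eq_of_beq_eq_true h1
        have e2 := Nat.eq_of_beq_eq_true h2
        have e3 := Nat.eq_of_beq_eq_true h3
        cases x; cases y
        dsimp only at e1 e2 e3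
        subst e1 e2 e3
        rfl
      rw [e, ih b h4]
theorem hP0 : eqPts P (ptsOf 24 9 ks) = true := by decide +kernel
theorem hK0 : eqPts K (P.map (tiltPtQ 17 38 24)) = true := by decide +kernel
theorem hP : P = ptsOf 24 9 ks := eqPts_eq _ _ hP0
theorem hK : K = P.map (tiltPtQ 17 38 24) := eqPts_eq _ _ hK0
theorem hnodup : ks.Nodup := by decide +kernel
theorem hvalid : ∀ k ∈ ks, k < 117 ∧ Valid 24 9 k := by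
  have : ∀ k ∈ ks, k < 117 ∧ k / 9 + k % 9 ≤ 24 := by decide +kernel
  exact this
theorem setup : SetupQ 24 9 80 117 268435456 17 38 ks :=
  ⟨by norm_num, by norm_num, by norm_num, by norm_num, by norm_num, by norm_num, by norm_num, hnodup, hvalid⟩
theorem hB : 1208925819614629174706176 = 2 ^ 80 := by norm_num
theorem hT1 : 1078802486918681997606912 = 2 * (3 * 38 * 24) * (3 * 38 * 24) * 268435456 * 268435456 := by norm_num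
theorem hT2 : 83010348331692982272 = 2 * 24 * 24 * 268435456 * 268435456 := by norm_num
theorem hT3 : 9463179709812999979008 = 2 * 24 * (3 * 38 * 24) * 268435456 * 268435456 := by norm_num
lemma hch0 (i j : Fin 3) : 0 ≤ channel 3 (-((((17 : ℕ) : ℝ)) / ((38 : ℕ) : ℝ))) i j :=
  ch3 (by norm_num) (by norm_num) i j
def w0 : List ℕ := [nat_lit 268435456,nat_lit 0,nat_lit 0,nat_lit 0,nat_lit 0,nat_lit 0,nat_lit 0,nat_lit 0,nat_lit 0,nat_lit 0,nat_lit 0,nat_lit 0,nat_lit 0,nat_lit 0,nat_lit 0,nat_lit 0,nat_lit 0,nat_lit 0,nat_lit 0,nat_lit 0,nat_lit 0,nat_lit 0,nat_lit 0,nat_lit 0,nat_lit 0,nat_lit 0,nat_lit 0,nat_lit 0,nat_lit 0,nat_lit 0,nat_lit 0,nat_lit 0,nat_lit 0,nat_lit 0,nat_lit 0,nat_lit 0,nat_lit 0,nat_lit 0,nat_lit 0,nat_lit 0,nat_lit 0,nat_lit 0,nat_lit 0,nat_lit 0,nat_lit 0,nat_lit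 0,nat_lit 0,nat_lit 0,nat_lit 0,nat_lit 0,nat_lit 0,nat_lit 0,nat_lit 0,nat_lit 0,nat_lit 0,nat_lit 0,nat_lit 0,nat_lit 0,nat_lit 0,nat_lit 0,nat_lit 0]
theorem h0 : w0 = 268435456 :: List.replicate ks.length 0 := by decide +kernel
theorem inv0 : InvB 5 (-(((17 : ℕ) : ℝ) / ((38 : ℕ) : ℝ))) hch0 24 9 268435456 ks 0 w0 := by
  rw [h0]
  exact InvB.zero setup
end Crest.Agent.Lib.Bc.GridO.B5E
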